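import Vale.Agent.P049.Abelian

/-!
# P049: Cayley graphs of abelian groups (in particular circulants) are never Ramanujan at large order
-/

namespace Vale.Agent.Results.P049.AbelianCayleyBarrier

open Vale.Agent.P049

/-- Let `d ≥ 3` and let `G` be a `d`-regular simple graph whose vertex set is a finite abelian group
`A` with more than `19 ^ d` elements and whose adjacency relation is invariant under all
translations (that is, `G` is a Cayley graph of `A`; for `A = ZMod n` a circulant graph).  Then the
adjacency matrix of `G` has an eigenvalue `μ > 2 * sqrt (d - 1)` with an eigenvector orthogonal to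
the constants; in particular `G` is not Ramanujan. -/
theorem result (d : ℕ) (hd : 3 ≤ d) (A : Type*) [AddCommGroup A] [Fintype A] [DecidableEq A]
    (G : SimpleGraph A) [DecidableRel G.Adj] (hreg : G.IsRegularOfDegree d)
    (hinv : ∀ a b c : A, G.Adj (a + c) (b + c) ↔ G.Adj a b)
    (hcard : 19 ^ d < Fintype.card A) :
    (∃ (μ : ℝ) (f : A → ℝ), f ≠ 0 ∧ ∑ v, f v = 0 ∧ (G.adjMatrix ℝ).mulVec f = μ • f ∧
      2 * Real.sqrt ((d : ℝ) - 1) < μ) ∧ ¬ IsRamanujan G d := by
  have h := exists_large_eigenvalue G d hd hreg (Equiv.refl A) (by simpa using hinv) hcard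
  refine ⟨h, ?_⟩
  rintro ⟨-, hR⟩
  obtain ⟨μ, f, hf, hsum, hev, hμ⟩ := h
  have := hR μ f hf hsum hev
  have h2 := le_abs_self μ
  linarith

end Vale.Agent.Results.P049.AbelianCayleyBarrier
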