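import Vale.Agent.P049.Abelian

/-!
# P049: abelian Cayley graphs of large order and vertex-transitive graphs of large prime order
have a nonconstant eigenvalue above `2 sqrt (d - 1)`

Both barrier results in one statement, written with library notions only: the conclusion exhibits
an eigenvalue `μ > 2 sqrt (d - 1)` of the adjacency matrix with a nonzero eigenvector orthogonal
to the all-ones vector, so the graph is not Ramanujan.
-/

namespace Vale.Agent.Results.P049.SymmetricBarriers

open Vale.Agent.P049

universe u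

theorem result (d : ℕ) (hd : 3 ≤ d) (V : Type u) [Fintype V] [DecidableEq V]
    (G : SimpleGraph V) [DecidableRel G.Adj] (hreg : G.IsRegularOfDegree d)
    (hcard : 19 ^ d < Fintype.card V)
    (hsym : (∃ (_ : AddCommGroup V), ∀ a b c : V, G.Adj (a + c) (b + c) ↔ G.Adj a b) ∨
      ((Fintype.card V).Prime ∧ ∀ x y : V, ∃ φ : G ≃g G, φ x = y)) :
    ∃ (μ : ℝ) (f : V → ℝ), f ≠ 0 ∧ ∑ v, f v = 0 ∧ (G.adjMatrix ℝ).mulVec f = μ • f ∧
      2 * Real.sqrt ((d : ℝ) - 1) < μ := by
  rcases hsym with ⟨inst, hinv⟩ | ⟨hp, htrans⟩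
  · exact exists_large_eigenvalue G d hd hreg (Equiv.refl V) (by simpa using hinv) hcard
  · have : Fact (Fintype.card V).Prime := ⟨hp⟩
    obtain ⟨e, he⟩ := exists_zmod_equiv_of_vertexTransitive G (Fintype.card V) rfl htrans
    exact exists_large_eigenvalue G d hd hreg e he hcard

end Vale.Agent.Results.P049.SymmetricBarriers
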