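import Vale.Agent.P049.Abelian

/-!
# P049: no vertex-transitive graph of large prime order is Ramanujan
-/

namespace Vale.Agent.Results.P049.VertexTransitivePrime

open Vale.Agent.P049

/-- Let `d ≥ 3` and let `p > 19 ^ d` be a prime.  No vertex-transitive simple graph on `p` vertices
is a `d`-regular Ramanujan graph. -/
theorem result (d p : ℕ) (hd : 3 ≤ d) (hp : p.Prime) (hpd : 19 ^ d < p)
    (V : Type*) [Fintype V] [DecidableEq V] (hV : Fintype.card V = p)
    (G : SimpleGraph V) [DecidableRel G.Adj]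
    (htrans : ∀ u v : V, ∃ φ : G ≃g G, φ u = v) : ¬ IsRamanujan G d := by
  rintro ⟨hreg, hR⟩
  have : Fact p.Prime := ⟨hp⟩
  obtain ⟨e, he⟩ := exists_zmod_equiv_of_vertexTransitive G p hV htrans
  obtain ⟨μ, f, hf, hsum, hev, hμ⟩ :=
    exists_large_eigenvalue G d hd hreg e he (by rw [hV]; exact hpd)
  have := hR μ f hf hsum hev
  have h2 := le_abs_self μ
  linarith

end Vale.Agent.Results.P049.VertexTransitivePrime
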